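import Vale.Agent.P207.N3.H722.GeoIn
import Vale.Agent.P207.N3.H76.Dir
import Vale.Agent.P207.N3.H265.Bus

/-!
# P207, line N3: the input structure `GeoIn` from the geometry of the frames

`EX G j x`: the frame vectors of `x` in the chart `j` of the universal cover (derivative of the
exponential map in the frame `x`). `Rie G j`: the metric in the chart `j`, the geodesic flow, and
the smoothness of the group. `geoIn` is the input structure `GeoIn` of the leaves.
-/

open Set Filter Topology Metric Real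
open scoped ContDiff
open Vale.Agent.P207.N3.H728 Vale.Agent.P207.N3.H709 Vale.Agent.P207.N3.H76

set_option linter.unusedSectionVars false

noncomputable section

namespace Vale.Agent.P207.N3.H607

variable {Γ X Y : Type} [Group Γ] [MetricSpace X] [ProperSpace X] [MetricSpace Y]
  [ProperSpace Y] [MulAction Γ X] [MulAction Γ Y] [IsIsometricSMul Γ X] [IsIsometricSMul Γ Y]
  (G : Geo Γ X Y) {V : Type} [NormedAddCommGroup V] [NormedSpace ℝ V] (j : Y ≃ₜ V)

/-- the frame vectors, in the chart `j` -/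
def EX (x : X) : E3 →L[ℝ] V := fderiv ℝ (fun u => j (G.E x u)) 0

/-- **the Riemannian input, in the chart `j`** -/
structure Rie where
  /-- the metric -/
  Gm : V → V →L[ℝ] V →L[ℝ] ℝ
  Gm_smooth : ContDiff ℝ ∞ Gm
  Gm_E : ∀ x c c', Gm (j (G.ft x)) (EX G j x c) (EX G j x c') = inner ℝ c c'
  dg : H265.DG (fun p q => dist (j.symm p) (j.symm q)) Gm
  act_smooth : ∀ g : Γ, ContDiff ℝ ∞ fun p => j (g • j.symm p)
  /-- the geodesic flow `(q, v, s) ↦ c (s)` -/
  gf : V × V × ℝ → V
  gf_smooth : ContDiff ℝ ∞ gf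
  gf_E : ∀ x (s : ℝ), j (G.E x (s • e0)) = gf (j (G.ft x), EX G j x e0, s)

variable {G j}

theorem EX_act (A : O3) (x : X) (hE : DifferentiableAt ℝ (fun u => j (G.E x u)) 0) (c : E3) :
    EX G j (G.act A x) c = EX G j x (A c) := by
  have h1 : HasFDerivAt (fun u => j (G.E x u)) (EX G j x) (A 0) := by
    rw [map_zero]
    exact hE.hasFDerivAt
  have h2 : HasFDerivAt (fun u : E3 => A u) (A.toContinuousLinearEquiv : E3 →L[ℝ] E3) 0 :=
    A.toContinuousLinearEquiv.hasFDerivAt
  have h3 : HasFDerivAt (fun u => j (G.E (G.act A x) u))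
      ((EX G j x).comp (A.toContinuousLinearEquiv : E3 →L[ℝ] E3)) 0 := by
    have h4 := HasFDerivAt.comp (g := fun u => j (G.E x u)) (0 : E3) h1 h2
    refine h4.congr_of_eventuallyEq (Eventually.of_forall fun u => ?_)
    exact congrArg j (G.E_act A x u)
  exact congrArg (fun L : E3 →L[ℝ] V => L c) h3.fderiv

/-- the line of a frame in the chart -/
theorem hasDerivAt_p (x : X) (hE : DifferentiableAt ℝ (fun u => j (G.E x u)) 0) :
    HasDerivAt (fun t : ℝ => j (G.p x t)) (EX G j x e0) 0 := by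
  have h1 : HasDerivAt (fun t : ℝ => t • e0) e0 0 := by
    simpa using (hasDerivAt_id (0 : ℝ)).smul_const e0
  have h2 : HasFDerivAt (fun u => j (G.E x u)) (EX G j x) ((0 : ℝ) • e0) := by
    rw [zero_smul]
    exact hE.hasFDerivAt
  exact h2.comp_hasDerivAt (0 : ℝ) h1

variable {o : Y}

/-- the Busemann function in the chart -/
def bF (j : Y ≃ₜ V) (ξ : Bd o) (q : V) : ℝ := bus ξ.ln (j.symm q)

/-- **the gradient of the Busemann functions** -/
theorem hasFDerivAt_bF (R : Rie G j) (x : X)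
    (hE : DifferentiableAt ℝ (fun u => j (G.E x u)) 0) :
    HasFDerivAt (bF j (G.em o x)) (R.Gm (j (G.ft x)) (EX G j x e0)) (j (G.ft x)) := by
  have h1 : j (G.p x 0) = j (G.ft x) := congrArg j (G.p_zero x)
  have h2 : R.Gm (j (G.ft x)) (EX G j x e0) (EX G j x e0) = 1 := by
    rw [R.Gm_E, real_inner_self_eq_norm_sq, norm_e0, one_pow]
  have h3 : H265.DG.IsLine (fun p q => dist (j.symm p) (j.symm q)) (fun t : ℝ => j (G.p x t)) :=
    ⟨fun s t => by
      rw [j.symm_apply_apply, j.symm_apply_apply, Ln.dist_eq]⟩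
  have h4 := R.dg.hasFDerivAt_bus (b := bF j (G.em o x)) (c := fun t : ℝ => j (G.p x t))
    (w := EX G j x e0) (fun p q => ?_) h3 (fun t => ?_) (hasDerivAt_p x hE) (by
      beta_reduce; rw [h1]; exact h2)
  · beta_reduce at h4
    rwa [h1] at h4
  · exact (le_abs_self _).trans (bus_lip _ _ _)
  · have h5 := G.had.bus_em o (G.p x) t
    simp only [bF, j.symm_apply_apply]
    exact h5

/-- `L` is the leaf structure of the geometry `G`, with charts of radius `r₀` -/
structure Of (G : Geo Γ X Y) (o : Y) (r₀ : ℝ) [MulAction Γ (Bd o)]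
    [ContinuousConstSMul Γ (Bd o)] (L : Leaf Γ X (Bd o)) : Prop where
  φ : ∀ s x, L.φ s x = G.φ s x
  rot : ∀ a x, L.rot a x = G.rot a x
  flip : ∀ x, L.flip x = G.flip x
  em : ∀ x, L.em x = G.em o x
  lv : ∀ x, L.lv x = G.lv o x
  e : ∀ x, ∀ u ∈ closedBall (0 : E2) 3, L.e x u = G.e o r₀ x u

section Main

variable [MulAction Γ (Bd o)] [ContinuousConstSMul Γ (Bd o)] [FiniteDimensional ℝ V]

/-- the derivative of the tube at the origin, at scale `r₀` -/
theorem fderiv_slc (D : G.Dir j) {r₀ : ℝ} (hr : (G.pre (D.sm3 o)).Small r₀) (x : X) (s : ℝ)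
    (u : E2) : fderiv ℝ ((G.slc (D.sm3 o) hr).A x) 0 (s, u) = EX G j x (pk s (r₀ • u)) := by
  set S : (ℝ × E2) →L[ℝ] (ℝ × E2) := (ContinuousLinearMap.fst ℝ ℝ E2).prod
    (r₀ • ContinuousLinearMap.snd ℝ ℝ E2) with hS
  have h0 : ((x, (0 : ℝ × E2)) : X × (ℝ × E2)) ∈
      (univ ×ˢ (univ ×ˢ ball 0 D.ε) : Set (X × (ℝ × E2))) :=
    ⟨mem_univ _, mem_univ _, mem_ball_self D.ε_pos⟩
  have h1 : HasFDerivAt (G.A o j x) ((EX G j x).comp Geo.pkC) (S 0) := by
    rw [map_zero]
    have h2 := ((D.A_jc o).differentiableAt h0).hasFDerivAt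
    rw [D.fderiv_A o x] at h2
    exact h2
  have h3 : HasFDerivAt (fun z => G.A o j x (S z)) (((EX G j x).comp Geo.pkC).comp S) 0 :=
    HasFDerivAt.comp (g := G.A o j x) (0 : ℝ × E2) h1 S.hasFDerivAt
  have h4 : (G.slc (D.sm3 o) hr).A x = fun z => G.A o j x (S z) := rfl
  rw [h4, h3.fderiv]
  rfl

/-- **the input structure of the geometry, from the frames** -/
def geoIn (D : G.Dir j) (R : Rie G j) (hinv : H459.InvThm) {r₀ : ℝ}
    (hr : (G.pre (D.sm3 o)).Small r₀) {L : Leaf Γ X (Bd o)} (hL : Of G o r₀ L) :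
    H722.GeoIn L V where
  S := G.slc (D.sm3 o) hr
  em_eq x := (hL.em x).symm
  ep_eq x := by rw [L.ep_flip, hL.flip, hL.em]; exact G.ep_flip o x
  e_eq x u hu := by rw [G.slc_e, hL.e x u hu]
  ft_φ x s := by
    rw [hL.φ, hL.em, G.slc_ft, G.slc_psi, G.slc_ft, j.symm_apply_apply]
    have h := G.psi_em o x s 0
    rw [add_zero, G.p_zero, G.p_ft] at h
    rw [h]
  E := EX G j
  r₀ := r₀
  r₀_pos := hr.pos
  A_fderiv x s u := fderiv_slc D hr x s u
  A_flip x u _ := by
    rw [hL.flip, G.slc_A, G.slc_A, G.A_disc, G.A_disc, Geo.flip, G.E_act, sg_pk, neg_zero]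
  E_flip x c := by rw [hL.flip]; exact EX_act sg x (D.E_diff x) c
  G := R.Gm
  G_smooth := R.Gm_smooth
  G_E := R.Gm_E
  vec_surj q v hv := by
    obtain ⟨y, hy⟩ := G.exists_ft (j.symm q)
    have hq : j (G.ft y) = q := by rw [hy, j.apply_symm_apply]
    obtain ⟨c, hc⟩ := (D.E_der y).2 v
    have h1 : ‖c‖ = 1 := by
      have h2 := R.Gm_E y c c
      have h3 : EX G j y c = v := hc
      rw [h3, hq, hv, real_inner_self_eq_norm_sq] at h2
      nlinarith [norm_nonneg c]
    obtain ⟨A, hA⟩ := exists_rot_e0 h1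
    refine ⟨G.act A y, ?_, ?_⟩
    · rw [G.slc_ft, G.ft_act, hq]
    · rw [EX_act A y (D.E_diff y), hA]
      exact hc
  vec_inj x y h1 h2 := by
    have h3 : G.ft x = G.ft y := j.injective h1
    obtain ⟨A, rfl⟩ := G.act_trans x y h3
    rw [EX_act A x (D.E_diff x)] at h2
    obtain ⟨a, ha⟩ := exists_ext ((D.E_der x).1 h2).symm
    rw [hL.em, hL.em, ha]
    exact (G.em_rot o a x).symm
  b := bF j
  b_jc := by
    refine H265.jc_of_grad R.Gm_smooth (W := (G.slc (D.sm3 o) hr).vel) ?_ ?_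
      ((G.slc (D.sm3 o) hr).vel_jc hinv)
    · have h1 : Continuous fun r : Bd o × V => r.1.ln := Bd.continuous_ln.comp continuous_fst
      exact Continuous.comp (g := fun q : Ln Y × Y => bus q.1 q.2) G.had.continuous_bus
        (h1.prodMk (j.symm.continuous.comp continuous_snd))
    · intro ξ q
      obtain ⟨x, rfl, hq⟩ := G.frame o ξ (j.symm q)
      have hq' : j (G.ft x) = q := by rw [hq, j.apply_symm_apply]
      subst hq'
      have h1 := hasFDerivAt_bF (o := o) R x (D.E_diff x)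
      have h2 : (G.slc (D.sm3 o) hr).vel (G.em o x) (j (G.ft x)) = EX G j x e0 := by
        have h3 := (G.slc (D.sm3 o) hr).hasDerivAt_psi hinv (G.em o x) 0 (j (G.ft x))
        rw [(G.slc (D.sm3 o) hr).psi_zero] at h3
        refine h3.unique ((hasDerivAt_p x (D.E_diff x)).congr_of_eventuallyEq
          (Eventually.of_forall fun t => ?_))
        have h4 := G.psi_em o x t 0
        rw [add_zero, G.p_zero] at h4
        beta_reduce
        rw [G.slc_psi, j.symm_apply_apply, h4]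
      rw [h2]
      exact h1
  b_lv x := by
    rw [hL.lv, hL.em, G.slc_ft, bF, j.symm_apply_apply, G.lv_eq]
  b_der x := by
    rw [hL.em]
    exact hasFDerivAt_bF R x (D.E_diff x)
  act g p := j (g • j.symm p)
  act_smooth := R.act_smooth
  act_ft g x := by rw [G.slc_ft, G.slc_ft, j.symm_apply_apply, G.ft_smul]
  gf := R.gf
  gf_smooth := R.gf_smooth
  gf_ft x s := by
    rw [hL.φ, G.slc_ft, G.ft_φ, R.gf_E]
    rfl

end Main

end Vale.Agent.P207.N3.H607
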