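import Vale.Agent.P207.N3.H607.In
import Vale.Agent.P207.N3.H728.Grom

/-!
# P207, line N3: more facts on the input structure of the geometry

Rotations and deck transformations of the discs and of the frames, the deck transformations are
isometries of the metric, the Busemann functions of the two ends of a line.
-/

open Set Filter Topology Metric Real
open scoped ContDiff
open Vale.Agent.P207.N3.H728 Vale.Agent.P207.N3.H709 Vale.Agent.P207.N3.H76

set_option linter.unusedSectionVars false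

noncomputable section

namespace Vale.Agent.P207.N3.H607

variable {Γ X Y : Type} [Group Γ] [MetricSpace X] [ProperSpace X] [MetricSpace Y]
  [ProperSpace Y] [MulAction Γ X] [MulAction Γ Y] [IsIsometricSMul Γ X] [IsIsometricSMul Γ Y]
  {G : Geo Γ X Y} {V : Type} [NormedAddCommGroup V] [NormedSpace ℝ V] {j : Y ≃ₜ V}

theorem EX_zero_right (x : X) : EX G j x 0 = 0 := map_zero _

/-- the frame vectors of a translated frame -/
theorem EX_smul (g : Γ) (x : X) (hE : DifferentiableAt ℝ (fun u => j (G.E x u)) 0)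
    (hg : DifferentiableAt ℝ (fun p => j (g • j.symm p)) (j (G.ft x))) (c : E3) :
    EX G j (g • x) c = fderiv ℝ (fun p => j (g • j.symm p)) (j (G.ft x)) (EX G j x c) := by
  have h1 : HasFDerivAt (fun p => j (g • j.symm p))
      (fderiv ℝ (fun p => j (g • j.symm p)) (j (G.ft x))) (j (G.E x 0)) := by
    rw [G.E_zero]
    exact hg.hasFDerivAt
  have h2 := HasFDerivAt.comp (g := fun p => j (g • j.symm p)) (0 : E3) h1 hE.hasFDerivAt
  have h3 : ((fun p => j (g • j.symm p)) ∘ fun u => j (G.E x u)) =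
      fun u => j (G.E (g • x) u) := by
    funext u
    change j (g • j.symm (j (G.E x u))) = _
    rw [j.symm_apply_apply, G.E_smul]
  rw [h3] at h2
  exact congrArg (fun L : E3 →L[ℝ] V => L c) h2.fderiv

/-- the frame vectors along the flow: the first one is the velocity of the line -/
theorem hasDerivAt_p' (x : X) (s : ℝ)
    (hE : ∀ x : X, DifferentiableAt ℝ (fun u => j (G.E x u)) 0) :
    HasDerivAt (fun t : ℝ => j (G.p x t)) (EX G j (G.φ s x) e0) s := by
  have h1 := hasDerivAt_p (j := j) (G.φ s x) (hE _)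
  have h0 : (0 : ℝ) = s + -s := by ring
  rw [h0] at h1
  have h2 := h1.comp_add_const s (-s)
  refine h2.congr_of_eventuallyEq (Eventually.of_forall fun t => ?_)
  beta_reduce
  rw [G.p_φ, Ln.φ_apply, neg_add_cancel_right]

variable {o : Y} [MulAction Γ (Bd o)] [ContinuousConstSMul Γ (Bd o)] [FiniteDimensional ℝ V]

section Main

variable (D : G.Dir j) (R : Rie G j) (hinv : H459.InvThm) {r₀ : ℝ}
  (hr : (G.pre (D.sm3 o)).Small r₀) {L : Leaf Γ X (Bd o)} (hL : Of G o r₀ L)

/-! ### the discs -/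

theorem in_A (x : X) (s : ℝ) (u : E2) : (geoIn D R hinv hr hL).S.A x (s, u) =
    G.A o j x (s, r₀ • u) := rfl

theorem in_disc (x : X) (u : E2) : (geoIn D R hinv hr hL).S.A x (0, u) =
    j (G.E x (pk 0 (r₀ • u))) := by
  rw [in_A, G.A_disc]

theorem in_rot (a : O2) (x : X) (s : ℝ) (u : E2) :
    (geoIn D R hinv hr hL).S.A (L.rot a x) (s, u) = (geoIn D R hinv hr hL).S.A x (s, a u) := by
  rw [in_A, in_A, hL.rot, ← map_smul]
  simp only [Geo.A, G.em_rot]
  rw [Geo.rot, G.E_act, ext_pk]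

theorem in_smul (g : Γ) (x : X) (z : ℝ × E2) : (geoIn D R hinv hr hL).S.A (g • x) z =
    (geoIn D R hinv hr hL).act g ((geoIn D R hinv hr hL).S.A x z) := by
  obtain ⟨s, u⟩ := z
  rw [in_A, in_A, G.A_smul]
  rfl

theorem in_R : (geoIn D R hinv hr hL).S.R = 4 := rfl

/-! ### the frames -/

theorem in_E_rot (a : O2) (x : X) (c : E3) :
    (geoIn D R hinv hr hL).E (L.rot a x) c = (geoIn D R hinv hr hL).E x (ext a c) := by
  rw [hL.rot]
  exact EX_act (ext a) x (D.E_diff x) c

theorem in_E_smul (g : Γ) (x : X) (c : E3) : (geoIn D R hinv hr hL).E (g • x) c =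
    fderiv ℝ ((geoIn D R hinv hr hL).act g) ((geoIn D R hinv hr hL).S.ft x)
      ((geoIn D R hinv hr hL).E x c) :=
  EX_smul g x (D.E_diff x) ((D.diff_smul g) _) c

/-- every orthonormal frame at a point is obtained by a rotation of the space -/
theorem in_frames (x y : X)
    (h : (geoIn D R hinv hr hL).S.ft x = (geoIn D R hinv hr hL).S.ft y) :
    ∃ A : O3, ∀ c, (geoIn D R hinv hr hL).E y c = (geoIn D R hinv hr hL).E x (A c) := by
  obtain ⟨A, rfl⟩ := G.act_trans x y (j.injective h)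
  exact ⟨A, fun c => EX_act A x (D.E_diff x) c⟩

/-! ### the group -/

theorem in_act_one (q : V) : (geoIn D R hinv hr hL).act 1 q = q := by
  change j ((1 : Γ) • j.symm q) = q
  rw [one_smul, j.apply_symm_apply]

theorem in_act_mul (g g' : Γ) (q : V) : (geoIn D R hinv hr hL).act (g * g') q =
    (geoIn D R hinv hr hL).act g ((geoIn D R hinv hr hL).act g' q) := by
  change j ((g * g') • j.symm q) = j (g • j.symm (j (g' • j.symm q)))
  rw [mul_smul, j.symm_apply_apply]

/-- the deck transformations are isometries of the metric -/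
theorem in_act_iso (g : Γ) (q v w : V) :
    (geoIn D R hinv hr hL).G ((geoIn D R hinv hr hL).act g q)
      (fderiv ℝ ((geoIn D R hinv hr hL).act g) q v)
      (fderiv ℝ ((geoIn D R hinv hr hL).act g) q w) = (geoIn D R hinv hr hL).G q v w := by
  obtain ⟨x, hx⟩ := G.exists_ft (j.symm q)
  have hq : (geoIn D R hinv hr hL).S.ft x = q := by
    change j (G.ft x) = q
    rw [hx, j.apply_symm_apply]
  obtain ⟨c, rfl⟩ := ((geoIn D R hinv hr hL).E_bij x).2 v
  obtain ⟨c', rfl⟩ := ((geoIn D R hinv hr hL).E_bij x).2 w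
  subst hq
  rw [← in_E_smul, ← in_E_smul, ← (geoIn D R hinv hr hL).act_ft,
    (geoIn D R hinv hr hL).G_E, (geoIn D R hinv hr hL).G_E]

/-! ### the Busemann functions -/

theorem in_b_base (ξ : Bd o) : (geoIn D R hinv hr hL).b ξ (j o) = 0 := by
  change bus ξ.ln (j.symm (j o)) = 0
  rw [j.symm_apply_apply]
  exact bus_base ξ

/-- frames over the base point -/
theorem exists_base : ∃ x, (geoIn D R hinv hr hL).S.ft x = j o ∧
    ∀ ξ, (geoIn D R hinv hr hL).b ξ ((geoIn D R hinv hr hL).S.ft x) = 0 := by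
  obtain ⟨x, hx⟩ := G.exists_ft o
  have h : (geoIn D R hinv hr hL).S.ft x = j o := congrArg j hx
  exact ⟨x, h, fun ξ => by rw [h, in_b_base]⟩

theorem in_b_lip (ξ : Bd o) (p q : V) :
    |(geoIn D R hinv hr hL).b ξ p - (geoIn D R hinv hr hL).b ξ q| ≤
      dist (j.symm p) (j.symm q) := bus_lip _ _ _

include hL in
theorem lv_add_lp (x : X) : L.lv x + L.lp x = G.had.Dd (L.em x) (L.ep x) := by
  have h1 : L.ep x = G.ep o x := by rw [L.ep_flip, hL.flip, hL.em, ← G.ep_flip]
  rw [Leaf.lp, hL.lv, hL.flip, hL.lv, hL.em, h1, G.lv_eq, G.lv_eq, ← G.ep_flip, G.ft_flip]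
  refine (G.had.Dd_eq_iff (G.em_ne_ep o x) (G.ft x)).2 ⟨G.p x, rfl, rfl, G.p_zero x⟩

theorem in_Dd_le {ξ η : Bd o} (h : ξ ≠ η) (q : V) : G.had.Dd ξ η ≤
    (geoIn D R hinv hr hL).b ξ q + (geoIn D R hinv hr hL).b η q :=
  G.had.Dd_le h (j.symm q)

/-- the sum of the Busemann functions of the two ends is smallest on the line -/
theorem in_le (x : X) (q : V) : L.lv x + L.lp x ≤
    (geoIn D R hinv hr hL).b (L.em x) q + (geoIn D R hinv hr hL).b (L.ep x) q := by
  rw [lv_add_lp hL]
  exact in_Dd_le D R hinv hr hL (L.em_ne_ep x) q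

/-- equality only on the line -/
theorem in_eq_line (x : X) (q : V)
    (h : (geoIn D R hinv hr hL).b (L.em x) q + (geoIn D R hinv hr hL).b (L.ep x) q =
      L.lv x + L.lp x) : (geoIn D R hinv hr hL).S.line (L.em x) q = L.ep x := by
  rw [lv_add_lp hL] at h
  obtain ⟨c, h1, h2, h3⟩ := (G.had.Dd_eq_iff (L.em_ne_ep x) (j.symm q)).1 h
  change G.had.line' (L.em x) (j.symm q) = L.ep x
  rw [← h1, ← h3, G.had.line'_em, h2]

/-- the function `D` of the end points -/
theorem in_D_le [MeasurableSpace (Bd o)] [BorelSpace (Bd o)] (A : Area L) {ξ η : Bd o} (h : ξ ≠ η) (q : V) : A.D ξ η ≤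
    (geoIn D R hinv hr hL).b ξ q + (geoIn D R hinv hr hL).b η q := by
  obtain ⟨x, rfl, rfl, -⟩ := L.exists_frame ξ η h 0
  rw [A.D_eq]
  exact in_le D R hinv hr hL x q

/-- the transformation of the Busemann functions -/
theorem in_b_act (g : Γ) (ξ : Bd o) (p q : V) :
    (geoIn D R hinv hr hL).b (g • ξ) ((geoIn D R hinv hr hL).act g p) -
      (geoIn D R hinv hr hL).b (g • ξ) ((geoIn D R hinv hr hL).act g q) =
    (geoIn D R hinv hr hL).b ξ p - (geoIn D R hinv hr hL).b ξ q := by
  obtain ⟨c, hc⟩ := (geoIn D R hinv hr hL).b_act g ξ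
  rw [hc, hc]
  ring

end Main

end Vale.Agent.P207.N3.H607
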